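import Vale.Agent.P208.Doubling

namespace Vale.Agent.Results.P208.Banach

open Vale.Agent.P208

universe u v

/-- Every infinite-dimensional real Banach space contains a compact doubling subset, with a
universal doubling constant, that has no bi-Lipschitz embedding into any finite-dimensional
normed space. -/
theorem result : ∃ lam : ℕ, ∀ (E : Type u) [NormedAddCommGroup E] [NormedSpace ℝ E]
    [CompleteSpace E], ¬ FiniteDimensional ℝ E → ∃ X : Set E, IsCompact X ∧
      (∀ p ∈ X, ∀ r : ℝ, 0 < r → ∃ C : Finset E, (C : Set E) ⊆ X ∧ C.card ≤ lam ∧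
        X ∩ Metric.closedBall p r ⊆ ⋃ c ∈ C, Metric.ball c (r / 2)) ∧
      ∀ (W : Type v) [NormedAddCommGroup W] [NormedSpace ℝ W] [FiniteDimensional ℝ W]
        (f : X → W) (a D : ℝ), 0 < a →
        ¬ ∀ x y : X, a * dist x y ≤ ‖f x - f y‖ ∧ ‖f x - f y‖ ≤ D * a * dist x y := by
  refine ⟨7683 * (7683 * (15367 * 15367)), fun E _ _ _ hE => ?_⟩
  obtain ⟨F⟩ := exists_frame hE
  refine ⟨closure F.carrier, F.isCompact_closure_carrier, fun p hp r hr => F.cover_closure p hp hr,
    fun W _ _ _ f a D ha hf => F.no_embedding (D := D) subset_closure f ha fun x y => ?_⟩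
  rw [dist_eq_norm (f x)]
  exact hf x y

end Vale.Agent.Results.P208.Banach
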