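import Vale.Agent.P208.Doubling

namespace Vale.Agent.Results.P208.Hilbert

open Vale.Agent.P208

/-- `X` is doubling: every ball of `X` is covered by boundedly many balls of half the radius with
centers in `X` (closed balls are covered by open balls, the strongest convention). -/
def IsDoublingSet {E : Type} [MetricSpace E] (X : Set E) : Prop :=
  ∃ lam : ℕ, ∀ p ∈ X, ∀ r : ℝ, 0 < r → ∃ C : Finset E, (C : Set E) ⊆ X ∧ C.card ≤ lam ∧
    X ∩ Metric.closedBall p r ⊆ ⋃ c ∈ C, Metric.ball c (r / 2)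

/-- `X` admits a bi-Lipschitz embedding into Euclidean `ℝ^k`. -/
def EmbedsIn {E : Type} [MetricSpace E] (X : Set E) (k : ℕ) : Prop :=
  ∃ (f : X → EuclideanSpace ℝ (Fin k)) (a D : ℝ), 0 < a ∧
    ∀ x y : X, a * dist x y ≤ ‖f x - f y‖ ∧ ‖f x - f y‖ ≤ D * a * dist x y

/-- A compact doubling subset of `ℓ₂` with no bi-Lipschitz embedding into any Euclidean space. -/
theorem result : ∃ X : Set (lp (fun _ : ℕ => ℝ) 2),
    IsCompact X ∧ IsDoublingSet X ∧ ∀ k : ℕ, ¬ EmbedsIn X k := by
  have hE : ¬ FiniteDimensional ℝ (lp (fun _ : ℕ => ℝ) 2) := fun h =>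
    Module.Finite.not_linearIndependent_of_infinite _
      (default : HilbertBasis ℕ ℝ (lp (fun _ : ℕ => ℝ) 2)).orthonormal.linearIndependent
  obtain ⟨F⟩ := exists_frame hE
  refine ⟨closure F.carrier, F.isCompact_closure_carrier,
    ⟨_, fun p hp r hr => F.cover_closure p hp hr⟩, ?_⟩
  rintro k ⟨f, a, D, ha, hf⟩
  refine F.no_embedding (D := D) subset_closure f ha fun x y => ?_
  rw [dist_eq_norm (f x)]
  exact hf x y

end Vale.Agent.Results.P208.Hilbert
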